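import Vale.Agent.P088.R2.H328.Osc

/-!
# P088, the gap (row EGAP)

With a fixed unit vector `e_k` put `p = (1 - r(x) - x_k) / r(x)`, `q = (1 - r(y) - y_k) / r(y)`
(the Busemann functions are `log p`, `log q`).
-/

open MeasureTheory Set Filter
open scoped ContDiff Matrix Topology

noncomputable section

namespace Vale.Agent.P088.HY

open Vale.Agent.P088.LR

variable {n : ℕ}

/-- `p = (1 - x_k) / r(x) - 1`. -/
def gp (k : Fin n) (z : VV n) : ℝ := (1 - z.1 k) * (r1 z)⁻¹ - 1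

/-- `q = (1 - y_k) / r(y) - 1`. -/
def gq (k : Fin n) (z : VV n) : ℝ := (1 - z.2 k) * (r2 z)⁻¹ - 1

/-- `A_i p`. -/
def gP (k i : Fin n) (z : VV n) : ℝ := (gp k z + 1) * z.1 i - kd i k

/-- `B_i q`. -/
def gQ (k i : Fin n) (z : VV n) : ℝ := (gq k z + 1) * z.2 i - kd i k

lemma su_gp (k : Fin n) : SU (gp k : VV n → ℝ) :=
  (((su_const 1).sub (su_x k)).mul su_r1i).sub (su_const 1)

lemma su_gq (k : Fin n) : SU (gq k : VV n → ℝ) :=
  (((su_const 1).sub (su_y k)).mul su_r2i).sub (su_const 1)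

lemma su_gP (k i : Fin n) : SU (gP k i : VV n → ℝ) :=
  (((su_gp k).add (su_const 1)).mul (su_x i)).sub (su_const _)

lemma su_gQ (k i : Fin n) : SU (gQ k i : VV n → ℝ) :=
  (((su_gq k).add (su_const 1)).mul (su_y i)).sub (su_const _)

lemma x_lin (k : Fin n) {z : VV n} (hz : z ∈ Un n) : z.1 k = 1 - (gp k z + 1) * r1 z := by
  have := (r1_pos hz).ne'
  unfold gp
  field_simp
  ring

lemma y_lin (k : Fin n) {z : VV n} (hz : z ∈ Un n) : z.2 k = 1 - (gq k z + 1) * r2 z := by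
  have := (r2_pos hz).ne'
  unfold gq
  field_simp
  ring

lemma gp_pos (k : Fin n) {z : VV n} (hz : z ∈ Un n) : 0 < gp k z := by
  have h1 := r1_pos hz
  have h : sq z.1 < 1 := hz.1
  have h2 : z.1 k ^ 2 ≤ sq z.1 :=
    Finset.single_le_sum (f := fun i => z.1 i ^ 2) (fun j _ => sq_nonneg _) (Finset.mem_univ k)
  have h3 : z.1 k < 1 := by nlinarith
  have h4 : r1 z < 1 - z.1 k := by
    unfold r1 rr
    nlinarith [mul_pos (sub_pos.2 h3) (sub_pos.2 h3)]
  have h5 : 1 < (1 - z.1 k) * (r1 z)⁻¹ := by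
    rw [← div_eq_mul_inv, lt_div_iff₀ h1, one_mul]
    exact h4
  unfold gp
  linarith

lemma gq_pos (k : Fin n) {z : VV n} (hz : z ∈ Un n) : 0 < gq k z := by
  have h1 := r2_pos hz
  have h : sq z.2 < 1 := hz.2
  have h2 : z.2 k ^ 2 ≤ sq z.2 :=
    Finset.single_le_sum (f := fun i => z.2 i ^ 2) (fun j _ => sq_nonneg _) (Finset.mem_univ k)
  have h3 : z.2 k < 1 := by nlinarith
  have h4 : r2 z < 1 - z.2 k := by
    unfold r2 rr
    nlinarith [mul_pos (sub_pos.2 h3) (sub_pos.2 h3)]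
  have h5 : 1 < (1 - z.2 k) * (r2 z)⁻¹ := by
    rw [← div_eq_mul_inv, lt_div_iff₀ h1, one_mul]
    exact h4
  unfold gq
  linarith

lemma su_gpi (k : Fin n) : SU (fun z : VV n => (gp k z)⁻¹) :=
  (su_gp k).inv fun _ hz => (gp_pos k hz).ne'

lemma su_gqi (k : Fin n) : SU (fun z : VV n => (gq k z)⁻¹) :=
  (su_gq k).inv fun _ hz => (gq_pos k hz).ne'

lemma Ax_gp (k : Fin n) {z : VV n} (hz : z ∈ Un n) (i : Fin n) : Ax i (gp k) z = gP k i z := by
  have h := (r1_pos hz).ne'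
  have e1 : Ax i (gp k) z = (0 - Ax i (fun z => z.1 k) z) * (r1 z)⁻¹ +
      (1 - z.1 k) * (-Ax i r1 z / r1 z ^ 2) - 0 := by
    unfold gp
    rw [Ax_eq, Dr_sub (((su_const 1).sub (su_x k)).mul su_r1i) (su_const 1) hz,
      Dr_mul ((su_const 1).sub (su_x k)) su_r1i hz, Dr_sub (su_const 1) (su_x k) hz,
      Dr_const, Dr_inv su_r1 hz h]
  rw [e1, Ax_x', Ax_r1]
  unfold gP gp
  field_simp
  ring

lemma By_gp (k : Fin n) {z : VV n} (hz : z ∈ Un n) (i : Fin n) : By i (gp k) z = 0 := by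
  have h := (r1_pos hz).ne'
  have e1 : By i (gp k) z = (0 - By i (fun z => z.1 k) z) * (r1 z)⁻¹ +
      (1 - z.1 k) * (-By i r1 z / r1 z ^ 2) - 0 := by
    unfold gp
    rw [By_eq, Dr_sub (((su_const 1).sub (su_x k)).mul su_r1i) (su_const 1) hz,
      Dr_mul ((su_const 1).sub (su_x k)) su_r1i hz, Dr_sub (su_const 1) (su_x k) hz,
      Dr_const, Dr_inv su_r1 hz h]
  rw [e1, By_x, By_r1]
  ring

lemma By_gq (k : Fin n) {z : VV n} (hz : z ∈ Un n) (i : Fin n) : By i (gq k) z = gQ k i z := by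
  have h := (r2_pos hz).ne'
  have e1 : By i (gq k) z = (0 - By i (fun z => z.2 k) z) * (r2 z)⁻¹ +
      (1 - z.2 k) * (-By i r2 z / r2 z ^ 2) - 0 := by
    unfold gq
    rw [By_eq, Dr_sub (((su_const 1).sub (su_y k)).mul su_r2i) (su_const 1) hz,
      Dr_mul ((su_const 1).sub (su_y k)) su_r2i hz, Dr_sub (su_const 1) (su_y k) hz,
      Dr_const, Dr_inv su_r2 hz h]
  rw [e1, By_y', By_r2]
  unfold gQ gq
  field_simp
  ring

lemma Ax_gq (k : Fin n) {z : VV n} (hz : z ∈ Un n) (i : Fin n) : Ax i (gq k) z = 0 := by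
  have h := (r2_pos hz).ne'
  have e1 : Ax i (gq k) z = (0 - Ax i (fun z => z.2 k) z) * (r2 z)⁻¹ +
      (1 - z.2 k) * (-Ax i r2 z / r2 z ^ 2) - 0 := by
    unfold gq
    rw [Ax_eq, Dr_sub (((su_const 1).sub (su_y k)).mul su_r2i) (su_const 1) hz,
      Dr_mul ((su_const 1).sub (su_y k)) su_r2i hz, Dr_sub (su_const 1) (su_y k) hz,
      Dr_const, Dr_inv su_r2 hz h]
  rw [e1, Ax_y, Ax_r2]
  ring

/-! ### Algebra -/

/-- `|A p|² = p²`. -/
lemma sum_gP_sq (k : Fin n) {z : VV n} (hz : z ∈ Un n) :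
    ∑ i, gP k i z * gP k i z = gp k z ^ 2 := by
  have h1 : ∀ i, gP k i z * gP k i z = (gp k z + 1) ^ 2 * (z.1 i * z.1 i) -
      2 * (gp k z + 1) * (kd i k * z.1 i) + kd i k * kd i k := by
    intro i; unfold gP; ring
  simp only [h1, Finset.sum_add_distrib, Finset.sum_sub_distrib, ← Finset.mul_sum]
  rw [sum_xx, sum_kd' k fun i => z.1 i, sum_kd' k fun i => kd i k, kd_self, x_lin k hz]
  ring

lemma sum_gQ_sq (k : Fin n) {z : VV n} (hz : z ∈ Un n) :
    ∑ i, gQ k i z * gQ k i z = gq k z ^ 2 := by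
  have h1 : ∀ i, gQ k i z * gQ k i z = (gq k z + 1) ^ 2 * (z.2 i * z.2 i) -
      2 * (gq k z + 1) * (kd i k * z.2 i) + kd i k * kd i k := by
    intro i; unfold gQ; ring
  simp only [h1, Finset.sum_add_distrib, Finset.sum_sub_distrib, ← Finset.mul_sum]
  rw [sum_yy, sum_kd' k fun i => z.2 i, sum_kd' k fun i => kd i k, kd_self, y_lin k hz]
  ring

/-- `x · A p = (p + 1) (1 - r) - 1`. -/
lemma sum_x_gP (k : Fin n) {z : VV n} (hz : z ∈ Un n) :
    ∑ i, z.1 i * gP k i z = (gp k z + 1) * (1 - r1 z) - 1 := by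
  have h1 : ∀ i, z.1 i * gP k i z = (gp k z + 1) * (z.1 i * z.1 i) - kd i k * z.1 i := by
    intro i; unfold gP; ring
  simp only [h1, Finset.sum_sub_distrib, ← Finset.mul_sum]
  rw [sum_xx, sum_kd' k fun i => z.1 i, x_lin k hz]
  ring

lemma sum_y_gQ (k : Fin n) {z : VV n} (hz : z ∈ Un n) :
    ∑ i, z.2 i * gQ k i z = (gq k z + 1) * (1 - r2 z) - 1 := by
  have h1 : ∀ i, z.2 i * gQ k i z = (gq k z + 1) * (z.2 i * z.2 i) - kd i k * z.2 i := by
    intro i; unfold gQ; ring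
  simp only [h1, Finset.sum_sub_distrib, ← Finset.mul_sum]
  rw [sum_yy, sum_kd' k fun i => z.2 i, y_lin k hz]
  ring

/-- `α · A p = p u - q`. -/
lemma sum_al_gP (k : Fin n) {z : VV n} (hz : z ∈ Un n) :
    ∑ i, al i z * gP k i z = gp k z * uu z - gq k z := by
  have h1 : ∀ i, al i z * gP k i z = (gp k z + 1) * (z.1 i * al i z) - kd i k * al i z := by
    intro i; unfold gP; ring
  have h2 : ∑ i, z.1 i * al i z = xa z := rfl
  simp only [h1, Finset.sum_sub_distrib, ← Finset.mul_sum]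
  rw [h2, sum_kd' k fun i => al i z, xa_eq hz, al_lin hz, x_lin k hz, y_lin k hz]
  have hr1 := (r1_pos hz).ne'
  have hr2 := (r2_pos hz).ne'
  field_simp
  ring

/-- `β · B q = q u - p`. -/
lemma sum_be_gQ (k : Fin n) {z : VV n} (hz : z ∈ Un n) :
    ∑ i, be i z * gQ k i z = gq k z * uu z - gp k z := by
  have h1 : ∀ i, be i z * gQ k i z = (gq k z + 1) * (z.2 i * be i z) - kd i k * be i z := by
    intro i; unfold gQ; ring
  have h2 : ∑ i, z.2 i * be i z = yb z := rfl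
  simp only [h1, Finset.sum_sub_distrib, ← Finset.mul_sum]
  rw [h2, sum_kd' k fun i => be i z, yb_eq hz, be_lin hz, x_lin k hz, y_lin k hz]
  have hr1 := (r1_pos hz).ne'
  have hr2 := (r2_pos hz).ne'
  field_simp
  ring

/-- `m B q = q α - A p`. -/
lemma sum_mm_gQ (k : Fin n) {z : VV n} (hz : z ∈ Un n) (i : Fin n) :
    ∑ j, mm i j z * gQ k j z = gq k z * al i z - gP k i z := by
  have h1 : ∀ j, mm i j z * gQ k j z = (gq k z + 1) * (mm i j z * z.2 j) - kd j k * mm i j z := by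
    intro j; unfold gQ; ring
  simp only [h1, Finset.sum_sub_distrib, ← Finset.mul_sum]
  rw [sum_mm_y hz, sum_kd' k fun j => mm i j z, mm_eq hz, yb_eq hz, be_lin hz, al_lin hz,
    x_lin k hz, y_lin k hz]
  unfold gP
  have hr1 := (r1_pos hz).ne'
  have hr2 := (r2_pos hz).ne'
  field_simp
  ring

/-- `mᵀ A p = p β - B q`. -/
lemma sum_mm_gP (k : Fin n) {z : VV n} (hz : z ∈ Un n) (j : Fin n) :
    ∑ i, mm i j z * gP k i z = gp k z * be j z - gQ k j z := by
  have h1 : ∀ i, mm i j z * gP k i z = (gp k z + 1) * (mm i j z * z.1 i) - kd i k * mm i j z := by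
    intro i; unfold gP; ring
  simp only [h1, Finset.sum_sub_distrib, ← Finset.mul_sum]
  rw [sum_mm_x hz, sum_kd' k fun i => mm i j z, mm_eq hz, xa_eq hz, be_lin hz, al_lin hz,
    x_lin k hz, y_lin k hz, kd_comm k j]
  unfold gQ
  have hr1 := (r1_pos hz).ne'
  have hr2 := (r2_pos hz).ne'
  field_simp
  ring

/-- `Σ A_i P_i + (n - 1) x·P = n p`. -/
lemma div_gP (k : Fin n) {z : VV n} (hz : z ∈ Un n) :
    ∑ i, (Ax i (gP k i) z + (n - 1) * (z.1 i * gP k i z)) = n * gp k z := by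
  have h1 : ∀ i : Fin n, Ax i (gP k i) z + (n - 1) * (z.1 i * gP k i z) =
      (gp k z + 1) * r1 z + n * (z.1 i * gP k i z) := by
    intro i
    have e1 : Ax i (gP k i) z = (Ax i (gp k) z + 0) * z.1 i + (gp k z + 1) *
        Ax i (fun z => z.1 i) z - 0 := by
      unfold gP
      rw [Ax_eq, Dr_sub (((su_gp k).add (su_const 1)).mul (su_x i)) (su_const _) hz,
        Dr_mul ((su_gp k).add (su_const 1)) (su_x i) hz, Dr_add (su_gp k) (su_const 1) hz,
        Dr_const, Dr_const]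
    rw [e1, Ax_gp k hz, Ax_x', kd_self]
    ring
  simp only [h1, Finset.sum_add_distrib, ← Finset.mul_sum]
  rw [sum_x_gP k hz, Finset.sum_const, Finset.card_univ, Fintype.card_fin, nsmul_eq_mul]
  ring

lemma div_gQ (k : Fin n) {z : VV n} (hz : z ∈ Un n) :
    ∑ i, (By i (gQ k i) z + (n - 1) * (z.2 i * gQ k i z)) = n * gq k z := by
  have h1 : ∀ i : Fin n, By i (gQ k i) z + (n - 1) * (z.2 i * gQ k i z) =
      (gq k z + 1) * r2 z + n * (z.2 i * gQ k i z) := by
    intro i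
    have e1 : By i (gQ k i) z = (By i (gq k) z + 0) * z.2 i + (gq k z + 1) *
        By i (fun z => z.2 i) z - 0 := by
      unfold gQ
      rw [By_eq, Dr_sub (((su_gq k).add (su_const 1)).mul (su_y i)) (su_const _) hz,
        Dr_mul ((su_gq k).add (su_const 1)) (su_y i) hz, Dr_add (su_gq k) (su_const 1) hz,
        Dr_const, Dr_const]
    rw [e1, By_gq k hz, By_y', kd_self]
    ring
  simp only [h1, Finset.sum_add_distrib, ← Finset.mul_sum]
  rw [sum_y_gQ k hz, Finset.sum_const, Finset.card_univ, Fintype.card_fin, nsmul_eq_mul]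
  ring

/-! ### The fields -/

/-- `w = (u / p + 1 / q) / 2`. -/
def gw (k : Fin n) (z : VV n) : ℝ := 1 / 2 * (uu z * (gp k z)⁻¹ + (gq k z)⁻¹)

/-- `w' = (u / q + 1 / p) / 2`. -/
def gv (k : Fin n) (z : VV n) : ℝ := 1 / 2 * (uu z * (gq k z)⁻¹ + (gp k z)⁻¹)

lemma su_gw (k : Fin n) : SU (gw k : VV n → ℝ) :=
  contDiffOn_const.mul ((su_uu.mul (su_gpi k)).add (su_gqi k))

lemma su_gv (k : Fin n) : SU (gv k : VV n → ℝ) :=
  contDiffOn_const.mul ((su_uu.mul (su_gqi k)).add (su_gpi k))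

lemma Ax_gw (k : Fin n) {z : VV n} (hz : z ∈ Un n) (i : Fin n) :
    Ax i (gw k) z = 1 / 2 * (al i z * (gp k z)⁻¹ - uu z * gP k i z / gp k z ^ 2) := by
  have h1 := (gp_pos k hz).ne'
  have h2 := (gq_pos k hz).ne'
  have e1 : Ax i (gw k) z = 1 / 2 * (Ax i uu z * (gp k z)⁻¹ +
      uu z * (-Ax i (gp k) z / gp k z ^ 2) + -Ax i (gq k) z / gq k z ^ 2) := by
    unfold gw
    rw [Ax_eq, Dr_cmul, Dr_add (su_uu.mul (su_gpi k)) (su_gqi k) hz, Dr_mul su_uu (su_gpi k) hz,
      Dr_inv (su_gp k) hz h1, Dr_inv (su_gq k) hz h2]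
  rw [e1, Ax_uu, Ax_gp k hz, Ax_gq k hz]
  ring

lemma By_gv (k : Fin n) {z : VV n} (hz : z ∈ Un n) (i : Fin n) :
    By i (gv k) z = 1 / 2 * (be i z * (gq k z)⁻¹ - uu z * gQ k i z / gq k z ^ 2) := by
  have h1 := (gp_pos k hz).ne'
  have h2 := (gq_pos k hz).ne'
  have e1 : By i (gv k) z = 1 / 2 * (By i uu z * (gq k z)⁻¹ +
      uu z * (-By i (gq k) z / gq k z ^ 2) + -By i (gp k) z / gp k z ^ 2) := by
    unfold gv
    rw [By_eq, Dr_cmul, Dr_add (su_uu.mul (su_gqi k)) (su_gpi k) hz, Dr_mul su_uu (su_gqi k) hz,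
      Dr_inv (su_gq k) hz h2, Dr_inv (su_gp k) hz h1]
  rw [e1, By_uu, By_gq k hz, By_gp k hz]
  ring

/-- `X = P w - α / 2`. -/
def gX (k i : Fin n) (z : VV n) : ℝ := gP k i z * gw k z - 1 / 2 * al i z

/-- `Y = Q w' - β / 2`. -/
def gY (k i : Fin n) (z : VV n) : ℝ := gQ k i z * gv k z - 1 / 2 * be i z

lemma su_gX (k i : Fin n) : SU (gX k i : VV n → ℝ) :=
  ((su_gP k i).mul (su_gw k)).sub (contDiffOn_const.mul (su_al i))

lemma su_gY (k i : Fin n) : SU (gY k i : VV n → ℝ) :=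
  ((su_gQ k i).mul (su_gv k)).sub (contDiffOn_const.mul (su_be i))

/-- `div X = (n p / q - q / p) / 2`. -/
lemma div_gX (k : Fin n) {z : VV n} (hz : z ∈ Un n) :
    ∑ i, (Ax i (gX k i) z + (n - 1) * (z.1 i * gX k i z)) =
      1 / 2 * (n * gp k z * (gq k z)⁻¹ - gq k z * (gp k z)⁻¹) := by
  have hp := (gp_pos k hz).ne'
  have hq := (gq_pos k hz).ne'
  have h1 : ∀ i : Fin n, Ax i (gX k i) z + (n - 1) * (z.1 i * gX k i z) =
      gw k z * (Ax i (gP k i) z + (n - 1) * (z.1 i * gP k i z)) +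
      1 / 2 * (gp k z)⁻¹ * (al i z * gP k i z) -
      1 / 2 * (uu z / gp k z ^ 2) * (gP k i z * gP k i z) -
      1 / 2 * (Ax i (al i) z + (n - 1) * (z.1 i * al i z)) := by
    intro i
    have e1 : Ax i (gX k i) z = Ax i (gP k i) z * gw k z + gP k i z * Ax i (gw k) z -
        1 / 2 * Ax i (al i) z := by
      have h : (gX k i : VV n → ℝ) = fun z => gP k i z * gw k z - 1 / 2 * al i z := rfl
      rw [h, Ax_eq, Dr_sub ((su_gP k i).mul (su_gw k)) (contDiffOn_const.mul (su_al i)) hz,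
        Dr_mul (su_gP k i) (su_gw k) hz, Dr_cmul]
    rw [e1, Ax_gw k hz]
    unfold gX
    field_simp
    ring
  simp only [h1]
  rw [Finset.sum_sub_distrib, Finset.sum_sub_distrib, Finset.sum_add_distrib, ← Finset.mul_sum,
    ← Finset.mul_sum, ← Finset.mul_sum, ← Finset.mul_sum, div_gP k hz, sum_al_gP k hz,
    sum_gP_sq k hz, div_al hz]
  unfold gw
  field_simp
  ring

lemma div_gY (k : Fin n) {z : VV n} (hz : z ∈ Un n) :
    ∑ i, (By i (gY k i) z + (n - 1) * (z.2 i * gY k i z)) =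
      1 / 2 * (n * gq k z * (gp k z)⁻¹ - gp k z * (gq k z)⁻¹) := by
  have hp := (gp_pos k hz).ne'
  have hq := (gq_pos k hz).ne'
  have h1 : ∀ i : Fin n, By i (gY k i) z + (n - 1) * (z.2 i * gY k i z) =
      gv k z * (By i (gQ k i) z + (n - 1) * (z.2 i * gQ k i z)) +
      1 / 2 * (gq k z)⁻¹ * (be i z * gQ k i z) -
      1 / 2 * (uu z / gq k z ^ 2) * (gQ k i z * gQ k i z) -
      1 / 2 * (By i (be i) z + (n - 1) * (z.2 i * be i z)) := by
    intro i
    have e1 : By i (gY k i) z = By i (gQ k i) z * gv k z + gQ k i z * By i (gv k) z -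
        1 / 2 * By i (be i) z := by
      have h : (gY k i : VV n → ℝ) = fun z => gQ k i z * gv k z - 1 / 2 * be i z := rfl
      rw [h, By_eq, Dr_sub ((su_gQ k i).mul (su_gv k)) (contDiffOn_const.mul (su_be i)) hz,
        Dr_mul (su_gQ k i) (su_gv k) hz, Dr_cmul]
    rw [e1, By_gv k hz]
    unfold gY
    field_simp
    ring
  simp only [h1]
  rw [Finset.sum_sub_distrib, Finset.sum_sub_distrib, Finset.sum_add_distrib, ← Finset.mul_sum,
    ← Finset.mul_sum, ← Finset.mul_sum, ← Finset.mul_sum, div_gQ k hz, sum_be_gQ k hz,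
    sum_gQ_sq k hz, div_be hz]
  unfold gv
  field_simp
  ring

/-- Row EGAP: the gap. -/
theorem rowEGAP : RowEGAP := by
  intro n hn c hc
  have k : Fin n := ⟨0, by omega⟩
  set μ : ℝ := ((n : ℝ) - 1) / 2 with hμ
  have hn' : (2 : ℝ) ≤ n := by exact_mod_cast hn
  have hμ0 : 0 < μ := by rw [hμ]; linarith
  have h1 := square_bound hc (σ := -1) (by norm_num)
    (Φ := fun i z => μ * (1 / 2 * (gp k z)⁻¹ * gP k i z))
    (Ψ := fun i z => μ * (1 / 2 * (gq k z)⁻¹ * gQ k i z))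
    (X := fun i z => μ * gX k i z) (Y := fun i z => μ * gY k i z)
    (fun i => contDiffOn_const.mul (su_gX k i))
    (fun i => contDiffOn_const.mul (su_gY k i))
    (fun z hz i => by
      have hp := (gp_pos k hz).ne'
      have hq := (gq_pos k hz).ne'
      have h : ∑ j, mm i j z * (μ * (1 / 2 * (gq k z)⁻¹ * gQ k j z)) =
          μ * (1 / 2 * (gq k z)⁻¹ * (gq k z * al i z - gP k i z)) := by
        rw [← sum_mm_gQ k hz i, Finset.mul_sum, Finset.mul_sum]
        exact Finset.sum_congr rfl fun j _ => by ring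
      rw [h]
      unfold gX gw
      field_simp
      ring)
    (fun z hz j => by
      have hp := (gp_pos k hz).ne'
      have hq := (gq_pos k hz).ne'
      have h : ∑ i, mm i j z * (μ * (1 / 2 * (gp k z)⁻¹ * gP k i z)) =
          μ * (1 / 2 * (gp k z)⁻¹ * (gp k z * be j z - gQ k j z)) := by
        rw [← sum_mm_gP k hz j, Finset.mul_sum, Finset.mul_sum]
        exact Finset.sum_congr rfl fun j _ => by ring
      rw [h]
      unfold gY gv
      field_simp
      ring)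
    (h := fun z => μ ^ 2 * (1 / 2 * (gp k z * (gq k z)⁻¹ + gq k z * (gp k z)⁻¹)))
    (contDiffOn_const.mul (contDiffOn_const.mul (((su_gp k).mul (su_gqi k)).add
      ((su_gq k).mul (su_gpi k)))))
    (fun z hz => by
      have hp := (gp_pos k hz).ne'
      have hq := (gq_pos k hz).ne'
      have e1 : ∑ i, μ * (1 / 2 * (gp k z)⁻¹ * gP k i z) * (μ * gX k i z) =
          μ ^ 2 * (1 / 2 * (gp k z)⁻¹) * (gw k z * ∑ i, gP k i z * gP k i z -
            1 / 2 * ∑ i, al i z * gP k i z) := by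
        rw [Finset.mul_sum, Finset.mul_sum, ← Finset.sum_sub_distrib, Finset.mul_sum]
        exact Finset.sum_congr rfl fun i _ => by unfold gX; ring
      have e2 : ∑ i, μ * (1 / 2 * (gq k z)⁻¹ * gQ k i z) * (μ * gY k i z) =
          μ ^ 2 * (1 / 2 * (gq k z)⁻¹) * (gv k z * ∑ i, gQ k i z * gQ k i z -
            1 / 2 * ∑ i, be i z * gQ k i z) := by
        rw [Finset.mul_sum, Finset.mul_sum, ← Finset.sum_sub_distrib, Finset.mul_sum]
        exact Finset.sum_congr rfl fun i _ => by unfold gY; ring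
      rw [e1, e2, sum_gP_sq k hz, sum_gQ_sq k hz, sum_al_gP k hz, sum_be_gQ k hz]
      unfold gw gv
      field_simp
      ring)
    (d := fun z => μ * ((n - 1) * (1 / 2 * (gp k z * (gq k z)⁻¹ + gq k z * (gp k z)⁻¹))))
    (contDiffOn_const.mul (contDiffOn_const.mul (contDiffOn_const.mul
      (((su_gp k).mul (su_gqi k)).add ((su_gq k).mul (su_gpi k))))))
    (fun z hz => by
      have e1 : ∀ i, Ax i (fun z => μ * gX k i z) z + (n - 1) * (z.1 i * (μ * gX k i z)) =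
          μ * (Ax i (gX k i) z + (n - 1) * (z.1 i * gX k i z)) := by
        intro i
        rw [Ax_eq, Dr_cmul]
        ring
      have e2 : ∀ i, By i (fun z => μ * gY k i z) z + (n - 1) * (z.2 i * (μ * gY k i z)) =
          μ * (By i (gY k i) z + (n - 1) * (z.2 i * gY k i z)) := by
        intro i
        rw [By_eq, Dr_cmul]
        ring
      simp only [e1, e2]
      rw [← Finset.mul_sum, ← Finset.mul_sum, div_gX k hz, div_gY k hz]
      ring)
  have e1 : EE (fun z => uu z * g2 c z + 2 * (-1) * cr c z) = EE (Hm c) :=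
    EE_congr fun z _ => by unfold Hm; ring
  have h2 : μ ^ 2 * EE (fun z => c z ^ 2) ≤
      EE (fun z => c z ^ 2 * (μ * ((n - 1) * (1 / 2 * (gp k z * (gq k z)⁻¹ +
        gq k z * (gp k z)⁻¹))) - μ ^ 2 * (1 / 2 * (gp k z * (gq k z)⁻¹ +
        gq k z * (gp k z)⁻¹)))) := by
    rw [← EE_const_mul]
    refine EE_mono (hc.pow2.const_mul _) ?_ fun z hz => ?_
    · refine hc.pow2.mul_su ?_
      have h3 : SU (fun z : VV n => gp k z * (gq k z)⁻¹ + gq k z * (gp k z)⁻¹) :=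
        ((su_gp k).mul (su_gqi k)).add ((su_gq k).mul (su_gpi k))
      exact (contDiffOn_const.mul (contDiffOn_const.mul (contDiffOn_const.mul h3))).sub
        (contDiffOn_const.mul (contDiffOn_const.mul h3))
    · have hp := gp_pos k hz
      have hq := gq_pos k hz
      have h3 : 1 ≤ 1 / 2 * (gp k z * (gq k z)⁻¹ + gq k z * (gp k z)⁻¹) := by
        have h4 : gp k z * (gq k z)⁻¹ + gq k z * (gp k z)⁻¹ =
            (gp k z ^ 2 + gq k z ^ 2) / (gp k z * gq k z) := by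
          field_simp
        rw [h4]
        have h5 : 2 ≤ (gp k z ^ 2 + gq k z ^ 2) / (gp k z * gq k z) := by
          rw [le_div_iff₀ (mul_pos hp hq)]
          nlinarith [sq_nonneg (gp k z - gq k z)]
        linarith
      have h6 : ((n : ℝ) - 1) = 2 * μ := by rw [hμ]; ring
      rw [h6]
      have h7 : 0 ≤ c z ^ 2 * μ ^ 2 := by positivity
      nlinarith [mul_le_mul_of_nonneg_left h3 h7]
  have h3 : μ ^ 2 * EE (fun z => c z ^ 2) ≤ EE (Hm c) := by
    rw [e1] at h1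
    exact h2.trans h1
  have h4 : 4 / ((n : ℝ) - 1) ^ 2 = (μ ^ 2)⁻¹ := by
    rw [hμ]
    have : (n : ℝ) - 1 ≠ 0 := by linarith
    field_simp
    norm_num
  rw [h4, ← div_eq_inv_mul, le_div_iff₀ (by positivity), mul_comm]
  exact h3

end Vale.Agent.P088.HY
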