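import Vale.Agent.P088.R2.H558.E4
import Vale.Agent.P088.R2.H724.Geo2

/-!
# P088, completing the square in `H_±`, the oscillator bound (row EOS)
-/

open MeasureTheory Set Filter
open scoped ContDiff Matrix Topology

noncomputable section

namespace Vale.Agent.P088.HY

open Vale.Agent.P088.LR

variable {n : ℕ}

lemma su_sum {ι : Type*} (t : Finset ι) {F : ι → VV n → ℝ} (h : ∀ i, SU (F i)) :
    SU (fun z => ∑ i ∈ t, F i z) := ContDiffOn.sum fun i _ => h i

/-- Divergence theorem for a field `(X, Y)`. -/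
lemma EE_div {f : VV n → ℝ} (hf : TF (Un n) f) {X Y : Fin n → VV n → ℝ} (hX : ∀ i, SU (X i))
    (hY : ∀ i, SU (Y i)) :
    EE (fun z => ∑ i, Ax i f z * X i z + ∑ i, By i f z * Y i z) =
      -EE (fun z => f z * (∑ i, (Ax i (X i) z + (n - 1) * (z.1 i * X i z)) +
        ∑ i, (By i (Y i) z + (n - 1) * (z.2 i * Y i z)))) := by
  have h1 : ∀ i, TF (Un n) (fun z => Ax i f z * X i z) := fun i => (hf.Ax i).mul_su (hX i)
  have h2 : ∀ i, TF (Un n) (fun z => By i f z * Y i z) := fun i => (hf.By i).mul_su (hY i)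
  have h3 : ∀ i, TF (Un n) (fun z => f z * (Ax i (X i) z + (n - 1) * (z.1 i * X i z))) :=
    fun i => hf.mul_su ((su_Ax (hX i) i).add (contDiffOn_const.mul ((su_x i).mul (hX i))))
  have h4 : ∀ i, TF (Un n) (fun z => f z * (By i (Y i) z + (n - 1) * (z.2 i * Y i z))) :=
    fun i => hf.mul_su ((su_By (hY i) i).add (contDiffOn_const.mul ((su_y i).mul (hY i))))
  rw [EE_add (TF.sum _ h1) (TF.sum _ h2), EE_sum _ h1, EE_sum _ h2]
  have h5 : EE (fun z => f z * (∑ i, (Ax i (X i) z + (n - 1) * (z.1 i * X i z)) +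
        ∑ i, (By i (Y i) z + (n - 1) * (z.2 i * Y i z)))) =
      ∑ i, EE (fun z => f z * (Ax i (X i) z + (n - 1) * (z.1 i * X i z))) +
      ∑ i, EE (fun z => f z * (By i (Y i) z + (n - 1) * (z.2 i * Y i z))) := by
    rw [← EE_sum _ h3, ← EE_sum _ h4, ← EE_add (TF.sum _ h3) (TF.sum _ h4)]
    refine EE_congr fun z _ => ?_
    rw [mul_add, Finset.mul_sum, Finset.mul_sum]
  rw [h5, neg_add, ← Finset.sum_neg_distrib, ← Finset.sum_neg_distrib]
  congr 1
  · exact Finset.sum_congr rfl fun i _ => EE_Ax_mul hf (hX i) i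
  · exact Finset.sum_congr rfl fun i _ => EE_By_mul hf (hY i) i

lemma TF.g2 {f : VV n → ℝ} (hf : TF (Un n) f) : TF (Un n) (g2 f) := by
  unfold HY.g2
  exact (TF.sum _ fun i => (hf.Ax i).pow2).add (TF.sum _ fun i => (hf.By i).pow2)

lemma TF.cr {f : VV n → ℝ} (hf : TF (Un n) f) : TF (Un n) (cr f) := by
  unfold HY.cr
  exact TF.sum _ fun i => TF.sum _ fun j => ((hf.Ax i).mul_su (su_mm i j)).mul (hf.By j)

/-- The form `u (|ξ|² + |η|²) + 2 σ ξ·mη` is nonnegative for `|σ| ≤ 1`. -/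
lemma form_nonneg {z : VV n} (hz : z ∈ Un n) {σ : ℝ} (hσ : |σ| ≤ 1) (ξ η : Fin n → ℝ) :
    0 ≤ uu z * (∑ i, ξ i ^ 2 + ∑ i, η i ^ 2) + 2 * σ * ∑ i, ∑ j, ξ i * mm i j z * η j := by
  have h := mm_form_le2 hz ξ η
  have hu := one_le_uu hz
  have hS : 0 ≤ ∑ i, ξ i ^ 2 + ∑ i, η i ^ 2 := by positivity
  have h1 : |σ * ∑ i, ∑ j, ξ i * mm i j z * η j| ≤
      uu z / 2 * (∑ i, ξ i ^ 2 + ∑ i, η i ^ 2) := by
    rw [abs_mul]
    calc _ ≤ 1 * |∑ i, ∑ j, ξ i * mm i j z * η j| :=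
          mul_le_mul_of_nonneg_right hσ (abs_nonneg _)
      _ ≤ _ := by rw [one_mul]; exact h
  have h2 := (abs_le.1 h1).1
  linarith

/-- Expansion of the form. -/
lemma form_expand (u σ c : ℝ) (m : Fin n → Fin n → ℝ) (ξ η Φ Ψ X Y : Fin n → ℝ)
    (hX : ∀ i, X i = u * Φ i + σ * ∑ j, m i j * Ψ j)
    (hY : ∀ j, Y j = u * Ψ j + σ * ∑ i, m i j * Φ i) :
    u * (∑ i, (ξ i + c * Φ i) ^ 2 + ∑ i, (η i + c * Ψ i) ^ 2) +
      2 * σ * ∑ i, ∑ j, (ξ i + c * Φ i) * m i j * (η j + c * Ψ j) =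
    (u * (∑ i, ξ i ^ 2 + ∑ i, η i ^ 2) + 2 * σ * ∑ i, ∑ j, ξ i * m i j * η j) +
      2 * c * (∑ i, ξ i * X i + ∑ i, η i * Y i) +
      c ^ 2 * (∑ i, Φ i * X i + ∑ i, Ψ i * Y i) := by
  have e1 : ∑ i, (ξ i + c * Φ i) ^ 2 =
      ∑ i, ξ i ^ 2 + 2 * c * ∑ i, ξ i * Φ i + c ^ 2 * ∑ i, Φ i * Φ i := by
    rw [Finset.mul_sum, Finset.mul_sum, ← Finset.sum_add_distrib, ← Finset.sum_add_distrib]
    exact Finset.sum_congr rfl fun i _ => by ring
  have e2 : ∑ i, (η i + c * Ψ i) ^ 2 =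
      ∑ i, η i ^ 2 + 2 * c * ∑ i, η i * Ψ i + c ^ 2 * ∑ i, Ψ i * Ψ i := by
    rw [Finset.mul_sum, Finset.mul_sum, ← Finset.sum_add_distrib, ← Finset.sum_add_distrib]
    exact Finset.sum_congr rfl fun i _ => by ring
  have e3 : ∑ i, ∑ j, (ξ i + c * Φ i) * m i j * (η j + c * Ψ j) =
      ∑ i, ∑ j, ξ i * m i j * η j + c * ∑ i, ξ i * ∑ j, m i j * Ψ j +
        c * ∑ j, η j * ∑ i, m i j * Φ i + c ^ 2 * ∑ i, Φ i * ∑ j, m i j * Ψ j := by
    have h1 : ∑ j, η j * ∑ i, m i j * Φ i = ∑ i, ∑ j, Φ i * m i j * η j := by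
      simp only [Finset.mul_sum]
      rw [Finset.sum_comm]
      exact Finset.sum_congr rfl fun i _ => Finset.sum_congr rfl fun j _ => by ring
    rw [h1]
    simp only [Finset.mul_sum]
    rw [← Finset.sum_add_distrib, ← Finset.sum_add_distrib, ← Finset.sum_add_distrib]
    refine Finset.sum_congr rfl fun i _ => ?_
    rw [← Finset.sum_add_distrib, ← Finset.sum_add_distrib, ← Finset.sum_add_distrib]
    exact Finset.sum_congr rfl fun j _ => by ring
  have e4 : ∑ i, ξ i * X i = u * ∑ i, ξ i * Φ i + σ * ∑ i, ξ i * ∑ j, m i j * Ψ j := by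
    rw [Finset.mul_sum, Finset.mul_sum, ← Finset.sum_add_distrib]
    exact Finset.sum_congr rfl fun i _ => by rw [hX]; ring
  have e5 : ∑ i, η i * Y i = u * ∑ i, η i * Ψ i + σ * ∑ j, η j * ∑ i, m i j * Φ i := by
    rw [Finset.mul_sum, Finset.mul_sum, ← Finset.sum_add_distrib]
    exact Finset.sum_congr rfl fun i _ => by rw [hY]; ring
  have e6 : ∑ i, Φ i * X i = u * ∑ i, Φ i * Φ i + σ * ∑ i, Φ i * ∑ j, m i j * Ψ j := by
    rw [Finset.mul_sum, Finset.mul_sum, ← Finset.sum_add_distrib]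
    exact Finset.sum_congr rfl fun i _ => by rw [hX]; ring
  have e7 : ∑ i, Ψ i * Y i = u * ∑ i, Ψ i * Ψ i + σ * ∑ i, Φ i * ∑ j, m i j * Ψ j := by
    have h1 : ∑ i, Φ i * ∑ j, m i j * Ψ j = ∑ j, Ψ j * ∑ i, m i j * Φ i := by
      simp only [Finset.mul_sum]
      rw [Finset.sum_comm]
      exact Finset.sum_congr rfl fun i _ => Finset.sum_congr rfl fun j _ => by ring
    rw [h1, Finset.mul_sum, Finset.mul_sum, ← Finset.sum_add_distrib]
    exact Finset.sum_congr rfl fun i _ => by rw [hY]; ring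
  rw [e1, e2, e3, e4, e5, e6, e7]
  ring

/-- Completing the square in `u |∇f|² + 2 σ A f · m B f`. -/
lemma square_bound {f : VV n → ℝ} (hf : TF (Un n) f) {σ : ℝ} (hσ : |σ| ≤ 1)
    {Φ Ψ X Y : Fin n → VV n → ℝ} (hXs : ∀ i, SU (X i)) (hYs : ∀ i, SU (Y i))
    (hX : ∀ z ∈ Un n, ∀ i, X i z = uu z * Φ i z + σ * ∑ j, mm i j z * Ψ j z)
    (hY : ∀ z ∈ Un n, ∀ j, Y j z = uu z * Ψ j z + σ * ∑ i, mm i j z * Φ i z)
    {h : VV n → ℝ} (hhs : SU h)
    (hh : ∀ z ∈ Un n, ∑ i, Φ i z * X i z + ∑ i, Ψ i z * Y i z = h z)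
    {d : VV n → ℝ} (hds : SU d)
    (hd : ∀ z ∈ Un n, ∑ i, (Ax i (X i) z + (n - 1) * (z.1 i * X i z)) +
        ∑ i, (By i (Y i) z + (n - 1) * (z.2 i * Y i z)) = d z) :
    EE (fun z => f z ^ 2 * (d z - h z)) ≤ EE (fun z => uu z * g2 f z + 2 * σ * cr f z) := by
  have h0 : 0 ≤ EE (fun z => (uu z * g2 f z + 2 * σ * cr f z) +
      ((∑ i, Ax i (fun z => f z ^ 2) z * X i z + ∑ i, By i (fun z => f z ^ 2) z * Y i z) +
      f z ^ 2 * h z)) := by
    refine EE_nonneg fun z hz => ?_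
    have h1 := form_nonneg hz hσ (fun i => Ax i f z + f z * Φ i z)
      (fun i => By i f z + f z * Ψ i z)
    rw [form_expand (uu z) σ (f z) (fun i j => mm i j z) (fun i => Ax i f z)
      (fun i => By i f z) (fun i => Φ i z) (fun i => Ψ i z) (fun i => X i z) (fun i => Y i z)
      (hX z hz) (hY z hz), hh z hz] at h1
    have h2 : ∀ i, Ax i (fun z => f z ^ 2) z = 2 * f z * Ax i f z := by
      intro i
      rw [Ax_eq, Dr_pow hf.su hz]
      norm_num
    have h3 : ∀ i, By i (fun z => f z ^ 2) z = 2 * f z * By i f z := by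
      intro i
      rw [By_eq, Dr_pow hf.su hz]
      norm_num
    simp only [h2, h3]
    have h4 : ∑ i, 2 * f z * Ax i f z * X i z = 2 * f z * ∑ i, Ax i f z * X i z := by
      rw [Finset.mul_sum]
      exact Finset.sum_congr rfl fun i _ => by ring
    have h5 : ∑ i, 2 * f z * By i f z * Y i z = 2 * f z * ∑ i, By i f z * Y i z := by
      rw [Finset.mul_sum]
      exact Finset.sum_congr rfl fun i _ => by ring
    rw [h4, h5, ← mul_add]
    unfold g2 cr
    linarith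
  have t1 : TF (Un n) (fun z => uu z * g2 f z + 2 * σ * cr f z) :=
    (hf.g2.smul su_uu).add (hf.cr.const_mul _)
  have t2 : TF (Un n) (fun z => ∑ i, Ax i (fun z => f z ^ 2) z * X i z +
      ∑ i, By i (fun z => f z ^ 2) z * Y i z) :=
    (TF.sum _ fun i => (hf.pow2.Ax i).mul_su (hXs i)).add
      (TF.sum _ fun i => (hf.pow2.By i).mul_su (hYs i))
  have t3 : TF (Un n) (fun z => f z ^ 2 * h z) := hf.pow2.mul_su hhs
  have t4 : TF (Un n) (fun z => f z ^ 2 * d z) := hf.pow2.mul_su hds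
  rw [EE_add t1 (t2.add t3), EE_add t2 t3, EE_div hf.pow2 hXs hYs] at h0
  have h6 : EE (fun z => f z ^ 2 * (∑ i, (Ax i (X i) z + (n - 1) * (z.1 i * X i z)) +
        ∑ i, (By i (Y i) z + (n - 1) * (z.2 i * Y i z)))) = EE (fun z => f z ^ 2 * d z) :=
    EE_congr fun z hz => by rw [hd z hz]
  have h7 : EE (fun z => f z ^ 2 * (d z - h z)) =
      EE (fun z => f z ^ 2 * d z) - EE (fun z => f z ^ 2 * h z) := by
    rw [← EE_sub t4 t3]
    exact EE_congr fun z _ => by ring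
  rw [h6] at h0
  rw [h7]
  linarith

/-- `Σ A_i α_i + (n - 1) x·α = n u`. -/
lemma div_al {z : VV n} (hz : z ∈ Un n) :
    ∑ i, (Ax i (al i) z + (n - 1) * (z.1 i * al i z)) = n * uu z := by
  have h1 : ∀ i : Fin n, Ax i (al i) z + (n - 1) * (z.1 i * al i z) =
      (uu z - xa z) + n * (z.1 i * al i z) := by
    intro i
    rw [Ax_al hz, kd_self]
    ring
  simp only [h1, Finset.sum_add_distrib, ← Finset.mul_sum]
  have h2 : ∑ i, z.1 i * al i z = xa z := rfl
  rw [h2, Finset.sum_const, Finset.card_univ, Fintype.card_fin, nsmul_eq_mul]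
  ring

/-- `Σ B_i β_i + (n - 1) y·β = n u`. -/
lemma div_be {z : VV n} (hz : z ∈ Un n) :
    ∑ i, (By i (be i) z + (n - 1) * (z.2 i * be i z)) = n * uu z := by
  have h1 : ∀ i : Fin n, By i (be i) z + (n - 1) * (z.2 i * be i z) =
      (uu z - yb z) + n * (z.2 i * be i z) := by
    intro i
    rw [By_be hz, kd_self]
    ring
  simp only [h1, Finset.sum_add_distrib, ← Finset.mul_sum]
  have h2 : ∑ i, z.2 i * be i z = yb z := rfl
  rw [h2, Finset.sum_const, Finset.card_univ, Fintype.card_fin, nsmul_eq_mul]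
  ring

lemma TF.Hp {f : VV n → ℝ} (hf : TF (Un n) f) : TF (Un n) (Hp f) :=
  (hf.g2.smul su_uu).add (hf.cr.const_mul 2)

lemma TF.Hm {f : VV n → ℝ} (hf : TF (Un n) f) : TF (Un n) (Hm f) :=
  (hf.g2.smul su_uu).sub (hf.cr.const_mul 2)

lemma su_ui : SU (fun z : VV n => (uu z)⁻¹) :=
  su_uu.inv fun z hz => by have := one_le_uu hz; positivity

lemma su_ps : SU (ps : VV n → ℝ) := su_uu.sub su_ui

/-- `u² ψ = u (u² - 1)`. -/
lemma uu_sq_ps {z : VV n} (hz : z ∈ Un n) : uu z ^ 2 * ps z = uu z * (uu z ^ 2 - 1) := by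
  have h : uu z ≠ 0 := by have := one_le_uu hz; positivity
  unfold ps
  field_simp

/-- Row EOS: the oscillator bound. -/
theorem rowEOS : RowEOS := by
  intro n τ hτ b hb
  have h1 := square_bound hb (σ := 1) (by norm_num)
    (Φ := fun i z => τ * al i z) (Ψ := fun i z => τ * be i z)
    (X := fun i z => 2 * τ * (uu z * al i z)) (Y := fun i z => 2 * τ * (uu z * be i z))
    (fun i => contDiffOn_const.mul (su_uu.mul (su_al i)))
    (fun i => contDiffOn_const.mul (su_uu.mul (su_be i)))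
    (fun z hz i => by
      have h : ∑ j, mm i j z * (τ * be j z) = τ * (uu z * al i z) := by
        rw [← sum_mm_be hz i, Finset.mul_sum]
        exact Finset.sum_congr rfl fun j _ => by ring
      rw [h]; ring)
    (fun z hz j => by
      have h : ∑ i, mm i j z * (τ * al i z) = τ * (uu z * be j z) := by
        rw [← sum_mm_al hz j, Finset.mul_sum]
        exact Finset.sum_congr rfl fun j _ => by ring
      rw [h]; ring)
    (h := fun z => 4 * τ ^ 2 * (uu z * (uu z ^ 2 - 1)))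
    (contDiffOn_const.mul (su_uu.mul ((su_uu.pow 2).sub (su_const 1))))
    (fun z hz => by
      have e1 : ∑ i, τ * al i z * (2 * τ * (uu z * al i z)) =
          2 * τ ^ 2 * uu z * ∑ i, al i z * al i z := by
        rw [Finset.mul_sum]
        exact Finset.sum_congr rfl fun i _ => by ring
      have e2 : ∑ i, τ * be i z * (2 * τ * (uu z * be i z)) =
          2 * τ ^ 2 * uu z * ∑ i, be i z * be i z := by
        rw [Finset.mul_sum]
        exact Finset.sum_congr rfl fun i _ => by ring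
      rw [e1, e2, sum_al_sq hz, sum_be_sq hz]
      ring)
    (d := fun z => 4 * τ * ((n + 1) * uu z ^ 2 - 1))
    (contDiffOn_const.mul ((contDiffOn_const.mul (su_uu.pow 2)).sub (su_const 1)))
    (fun z hz => by
      have e1 : ∀ i, Ax i (fun z => 2 * τ * (uu z * al i z)) z +
          (n - 1) * (z.1 i * (2 * τ * (uu z * al i z))) =
          2 * τ * (al i z * al i z) +
          2 * τ * uu z * (Ax i (al i) z + (n - 1) * (z.1 i * al i z)) := by
        intro i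
        rw [Ax_eq, Dr_cmul, Dr_mul su_uu (su_al i) hz, ← Ax_eq, Ax_uu]
        ring
      have e2 : ∀ i, By i (fun z => 2 * τ * (uu z * be i z)) z +
          (n - 1) * (z.2 i * (2 * τ * (uu z * be i z))) =
          2 * τ * (be i z * be i z) +
          2 * τ * uu z * (By i (be i) z + (n - 1) * (z.2 i * be i z)) := by
        intro i
        rw [By_eq, Dr_cmul, Dr_mul su_uu (su_be i) hz, ← By_eq, By_uu]
        ring
      simp only [e1, e2]
      rw [Finset.sum_add_distrib, Finset.sum_add_distrib, ← Finset.mul_sum, ← Finset.mul_sum,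
        ← Finset.mul_sum, ← Finset.mul_sum, div_al hz, div_be hz, sum_al_sq hz, sum_be_sq hz]
      ring)
  have t0 : TF (Un n) (fun z => b z ^ 2 * ((n + 1) * uu z ^ 2 - 1)) :=
    hb.pow2.mul_su ((contDiffOn_const.mul (su_uu.pow 2)).sub (su_const 1))
  have t1 : TF (Un n) (fun z => b z ^ 2 * (uu z * (uu z ^ 2 - 1))) :=
    hb.pow2.mul_su (su_uu.mul ((su_uu.pow 2).sub (su_const 1)))
  have e1 : EE (fun z => b z ^ 2 * (4 * τ * ((n + 1) * uu z ^ 2 - 1) -
      4 * τ ^ 2 * (uu z * (uu z ^ 2 - 1)))) =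
      4 * τ * EE (fun z => b z ^ 2 * ((n + 1) * uu z ^ 2 - 1)) -
      4 * τ ^ 2 * EE (fun z => b z ^ 2 * (uu z * (uu z ^ 2 - 1))) := by
    rw [← EE_const_mul, ← EE_const_mul, ← EE_sub (t0.const_mul _) (t1.const_mul _)]
    exact EE_congr fun z _ => by ring
  have e2 : EE (fun z => uu z * g2 b z + 2 * 1 * cr b z) = EE (Hp b) :=
    EE_congr fun z _ => by unfold Hp; ring
  have e3 : EE (fun z => 2 * τ * Hp b z + 8 * τ ^ 3 * (uu z ^ 2 * ps z) * b z ^ 2) =
      2 * τ * EE (Hp b) + 8 * τ ^ 3 * EE (fun z => b z ^ 2 * (uu z * (uu z ^ 2 - 1))) := by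
    rw [← EE_const_mul, ← EE_const_mul, ← EE_add (hb.Hp.const_mul _) (t1.const_mul _)]
    exact EE_congr fun z hz => by rw [uu_sq_ps hz]; ring
  have e4 : EE (fun z => ((n + 1) * uu z ^ 2 - 1) * b z ^ 2) =
      EE (fun z => b z ^ 2 * ((n + 1) * uu z ^ 2 - 1)) := EE_congr fun z _ => by ring
  rw [e1, e2] at h1
  rw [e3, e4]
  have h2 := mul_le_mul_of_nonneg_left h1 (by positivity : (0 : ℝ) ≤ 2 * τ)
  nlinarith [h2]

end Vale.Agent.P088.HY
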